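import Mathlib

namespace Vale.Agent.P227

/-- A monotone additive function on the nonnegative reals is linear. -/
theorem additive_mono_linear (f : ℝ → ℝ)
    (hadd : ∀ x y : ℝ, 0 ≤ x → 0 ≤ y → f (x + y) = f x + f y)
    (hmono : ∀ x y : ℝ, 0 ≤ x → x ≤ y → f x ≤ f y) :
    ∀ t : ℝ, 0 ≤ t → f t = f 1 * t := by
  have h0 : f 0 = 0 := by
    have := hadd 0 0 le_rfl le_rfl
    simp at this
    linarith
  have hnat : ∀ (N : ℕ) (x : ℝ), 0 ≤ x → f (N * x) = N * f x := by
    intro N x hx
    induction N with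
    | zero => simp [h0]
    | succ k ih =>
      have : ((k + 1 : ℕ) : ℝ) * x = k * x + x := by push_cast; ring
      rw [this, hadd _ _ (by positivity) hx, ih]
      push_cast; ring
  have hf1 : 0 ≤ f 1 := by
    have := hmono 0 1 le_rfl zero_le_one
    linarith
  intro t ht
  have key : ∀ N : ℕ, 0 < N → |f t - f 1 * t| * N ≤ f 1 := by
    intro N hN
    have hNt : (0 : ℝ) ≤ N * t := by positivity
    set m : ℕ := ⌊(N : ℝ) * t⌋₊ with hm
    have h1 : (m : ℝ) ≤ N * t := Nat.floor_le hNt
    have h2 : (N : ℝ) * t ≤ m + 1 := (Nat.lt_floor_add_one _).le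
    have e1 : f (m : ℝ) = m * f 1 := by
      have := hnat m 1 zero_le_one
      simpa using this
    have e2 : f ((m : ℝ) + 1) = (m + 1) * f 1 := by
      have := hnat (m + 1) 1 zero_le_one
      simpa using this
    have e3 := hnat N t ht
    have l1 : f (m : ℝ) ≤ f (N * t) := hmono _ _ (by positivity) h1
    have l2 : f (N * t) ≤ f ((m : ℝ) + 1) := hmono _ _ hNt h2
    rw [e1, e3] at l1
    rw [e2, e3] at l2
    have hNpos : (0 : ℝ) < N := by exact_mod_cast hN
    have : |f t - f 1 * t| * N = |N * f t - f 1 * (N * t)| := by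
      rw [← abs_of_pos hNpos, ← abs_mul, abs_of_pos hNpos]
      congr 1; ring
    rw [this, abs_le]
    constructor
    · nlinarith
    · nlinarith
  by_contra hne
  have hpos : 0 < |f t - f 1 * t| := abs_pos.mpr (sub_ne_zero.mpr hne)
  obtain ⟨N, hN⟩ := exists_nat_gt (f 1 / |f t - f 1 * t|)
  have hN0 : 0 < N := by
    have : (0 : ℝ) < N := lt_of_le_of_lt (by positivity) hN
    exact_mod_cast this
  have := key N hN0
  rw [div_lt_iff₀ hpos] at hN
  linarith

end Vale.Agent.P227
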