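import Mathlib

open MeasureTheory Set
open scoped Pointwise

namespace Vale.Agent.P227

/-- Euclidean `n`-space. -/
abbrev E (n : ℕ) := EuclideanSpace ℝ (Fin n)

/-- The support function `h_K(u) = sup_{x ∈ K} ⟨x, u⟩`. -/
noncomputable def supp {n : ℕ} (K : Set (E n)) (u : E n) : ℝ :=
  sSup ((fun x : E n => inner ℝ x u) '' K)

/-- The Wulff body of a function on the unit sphere. -/
def wulff {n : ℕ} (f : E n → ℝ) : Set (E n) :=
  {x | ∀ u : E n, ‖u‖ = 1 → inner ℝ x u ≤ f u}

/-- The logarithmic combination `(1 - lam) K +_0 lam L`. -/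
noncomputable def logSum {n : ℕ} (K L : Set (E n)) (lam : ℝ) : Set (E n) :=
  wulff (fun u => supp K u ^ (1 - lam) * supp L u ^ lam)

/-- Origin-symmetric convex bodies. -/
structure IsSymBody {n : ℕ} (K : Set (E n)) : Prop where
  isCompact : IsCompact K
  convex : Convex ℝ K
  nonempty_interior : (interior K).Nonempty
  neg_mem : ∀ x ∈ K, -x ∈ K

end Vale.Agent.P227
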