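import Mathlib

open Set

namespace Vale.Agent.P227

theorem chord (lam : ℝ) (h0 : 0 ≤ lam) (h1 : lam ≤ 1) (p q : ℝ) (hp : 0 < p)
    (hq0 : 0 ≤ q) (hqp : q ≤ p) :
    1 + (q / p) * ((1 + p) ^ lam - 1) ≤ (1 + q) ^ lam := by
  have hc := @(Real.concaveOn_rpow h0 h1).2 1
    (by simp) (1 + p) (by simp only [mem_Ici]; linarith) (1 - q / p) (q / p)
    (by rw [sub_nonneg, div_le_one hp]; exact hqp) (by positivity) (by ring)
  simp only [smul_eq_mul, Real.one_rpow, mul_one] at hc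
  have e : 1 - q / p + q / p * (1 + p) = 1 + q := by field_simp; ring
  rw [e] at hc
  linarith

theorem homog_eq (lam : ℝ) (a b : ℝ) (ha : 0 < a) (hb : 0 ≤ b) :
    a ^ (1 - lam) * (a + b) ^ lam = a * (1 + b / a) ^ lam := by
  have e : a + b = a * (1 + b / a) := by field_simp
  rw [e, Real.mul_rpow ha.le (by positivity), ← mul_assoc, ← Real.rpow_add ha]
  simp

theorem homog_le (lam : ℝ) (h0 : 0 ≤ lam) (h1 : lam ≤ 1) (τ : ℝ) (hτ : 0 < τ) (a b : ℝ)
    (ha : 0 ≤ a) (hb : 0 ≤ b) (hba : b ≤ τ * a) :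
    a + ((1 + τ) ^ lam - 1) / τ * b ≤ a ^ (1 - lam) * (a + b) ^ lam := by
  rcases eq_or_lt_of_le ha with h | h
  · subst h
    have : b = 0 := le_antisymm (by simpa using hba) hb
    subst this
    simp only [mul_zero, add_zero]
    positivity
  · rw [homog_eq lam a b h hb]
    have := chord lam h0 h1 τ (b / a) hτ (by positivity) (by rw [div_le_iff₀ h]; exact hba)
    have h2 := mul_le_mul_of_nonneg_left this h.le
    refine le_trans (le_of_eq ?_) h2
    field_simp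

theorem homog_ge (lam : ℝ) (h0 : 0 ≤ lam) (h1 : lam ≤ 1) (τ : ℝ) (hτ : 0 < τ) (a b : ℝ)
    (ha : 0 < a) (hba : τ * a ≤ b) :
    a ^ (1 - lam) * (a + b) ^ lam ≤ a + ((1 + τ) ^ lam - 1) / τ * b := by
  have hb : 0 < b := lt_of_lt_of_le (by positivity) hba
  rw [homog_eq lam a b ha hb.le]
  have hp : 0 < b / a := by positivity
  have := chord lam h0 h1 (b / a) τ hp hτ.le (by rw [le_div_iff₀ ha]; exact hba)
  -- `1 + τ/p ((1+p)^lam - 1) ≤ (1+τ)^lam`
  have h2 : (1 + b / a) ^ lam ≤ 1 + (b / a) / τ * ((1 + τ) ^ lam - 1) := by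
    have h3 : τ / (b / a) * ((1 + b / a) ^ lam - 1) ≤ (1 + τ) ^ lam - 1 := by linarith
    have h4 := mul_le_mul_of_nonneg_left h3 (show 0 ≤ (b / a) / τ by positivity)
    have h5 : b / a / τ * (τ / (b / a) * ((1 + b / a) ^ lam - 1)) = (1 + b / a) ^ lam - 1 := by
      field_simp
    rw [h5] at h4
    linarith
  have h6 := mul_le_mul_of_nonneg_left h2 ha.le
  refine le_trans h6 (le_of_eq ?_)
  field_simp

end Vale.Agent.P227
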