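import Vale.Agent.P227.Defs
import Vale.Agent.P227.Cauchy

open MeasureTheory Set
open scoped Pointwise

namespace Vale.Agent.P227

variable {n : ℕ}

/-- The set swept by `K` when translated along `[0, t] v`. -/
def sweep (K : Set (E n)) (v : E n) (t : ℝ) : Set (E n) :=
  (fun p : ℝ × E n => p.1 • v + p.2) '' (Icc 0 t ×ˢ K)

theorem mem_sweep {K : Set (E n)} {v : E n} {t : ℝ} {x : E n} :
    x ∈ sweep K v t ↔ ∃ r : ℝ, 0 ≤ r ∧ r ≤ t ∧ ∃ k ∈ K, x = r • v + k := by
  constructor
  · rintro ⟨⟨r, k⟩, ⟨⟨h0, h1⟩, hk⟩, rfl⟩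
    exact ⟨r, h0, h1, k, hk, rfl⟩
  · rintro ⟨r, h0, h1, k, hk, rfl⟩
    exact ⟨(r, k), ⟨⟨h0, h1⟩, hk⟩, rfl⟩

theorem sweep_compact {K : Set (E n)} (hK : IsCompact K) (v : E n) (t : ℝ) :
    IsCompact (sweep K v t) :=
  (isCompact_Icc.prod hK).image (by fun_prop)

theorem sweep_zero (K : Set (E n)) (v : E n) : sweep K v 0 = K := by
  ext x
  rw [mem_sweep]
  constructor
  · rintro ⟨r, h0, h1, k, hk, rfl⟩
    have : r = 0 := le_antisymm h1 h0
    simpa [this] using hk
  · intro hx
    exact ⟨0, le_rfl, le_rfl, x, hx, by simp⟩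

theorem sweep_mono (K : Set (E n)) (v : E n) {s t : ℝ} (h : s ≤ t) :
    sweep K v s ⊆ sweep K v t := by
  intro x
  rw [mem_sweep, mem_sweep]
  rintro ⟨r, h0, h1, k, hk, rfl⟩
  exact ⟨r, h0, h1.trans h, k, hk, rfl⟩

theorem sweep_add (K : Set (E n)) (v : E n) {s t : ℝ} (hs : 0 ≤ s) (ht : 0 ≤ t) :
    sweep K v (s + t) = sweep K v s ∪ (fun x => s • v + x) '' sweep K v t := by
  ext x
  simp only [mem_union, mem_image, mem_sweep]
  constructor
  · rintro ⟨r, h0, h1, k, hk, rfl⟩
    rcases le_total r s with h | h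
    · exact Or.inl ⟨r, h0, h, k, hk, rfl⟩
    · refine Or.inr ⟨(r - s) • v + k, ⟨r - s, by linarith, by linarith, k, hk, rfl⟩, ?_⟩
      rw [← add_assoc, ← add_smul]
      congr 2; ring
  · rintro (⟨r, h0, h1, k, hk, rfl⟩ | ⟨y, ⟨r, h0, h1, k, hk, rfl⟩, rfl⟩)
    · exact ⟨r, h0, by linarith, k, hk, rfl⟩
    · refine ⟨s + r, by linarith, by linarith, k, hk, ?_⟩
      rw [← add_assoc, ← add_smul]

theorem sweep_inter {K : Set (E n)} (hK : Convex ℝ K) (v : E n) {s t : ℝ}
    (hs : 0 ≤ s) (ht : 0 ≤ t) :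
    sweep K v s ∩ (fun x => s • v + x) '' sweep K v t = (fun x => s • v + x) '' K := by
  ext x
  simp only [mem_inter_iff, mem_image, mem_sweep]
  constructor
  · rintro ⟨⟨r, h0, h1, k, hk, rfl⟩, ⟨y, ⟨r', h0', h1', k', hk', rfl⟩, hxy⟩⟩
    -- `s v + r' v + k' = r v + k`
    have hk_eq : k = (s - r + r') • v + k' := by
      have : k = (s • v + (r' • v + k')) - r • v := by rw [hxy]; abel
      rw [this]
      module
    rcases eq_or_lt_of_le (show 0 ≤ s - r + r' by linarith) with h | h
    · have hr : r = s := by linarith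
      exact ⟨k, hk, by rw [hr]⟩
    · refine ⟨r' • v + k', ?_, hxy⟩
      have hmem := hK hk hk' (a := r' / (s - r + r')) (b := (s - r) / (s - r + r'))
        (by positivity) (div_nonneg (by linarith) h.le)
        (by rw [← add_div]; rw [div_eq_one_iff_eq h.ne']; ring)
      have : (r' / (s - r + r')) • k + ((s - r) / (s - r + r')) • k' = r' • v + k' := by
        rw [hk_eq, smul_add, smul_smul, div_mul_cancel₀ _ h.ne', add_assoc, ← add_smul,
          ← add_div]
        have : (r' + (s - r)) / (s - r + r') = 1 := by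
          rw [div_eq_one_iff_eq h.ne']; ring
        rw [this, one_smul]
      rwa [this] at hmem
  · rintro ⟨k, hk, rfl⟩
    exact ⟨⟨s, hs, le_rfl, k, hk, rfl⟩, ⟨k, ⟨0, le_rfl, ht, k, hk, by simp⟩, rfl⟩⟩

theorem volume_translate (w : E n) (S : Set (E n)) :
    volume ((fun x => w + x) '' S) = volume S := by
  rw [image_add_left, measure_preimage_add]

/-- The volume of the swept set is an affine function of `t`. -/
theorem volume_sweep {K : Set (E n)} (hK : IsCompact K) (hc : Convex ℝ K) (v : E n) :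
    ∃ c : ℝ, 0 ≤ c ∧ ∀ t : ℝ, 0 ≤ t →
      (volume (sweep K v t)).toReal = (volume K).toReal + c * t := by
  set F : ℝ → ℝ := fun t => (volume (sweep K v t)).toReal with hF
  have hfin : ∀ t, volume (sweep K v t) ≠ ⊤ := fun t => (sweep_compact hK v t).measure_lt_top.ne
  have hF0 : F 0 = (volume K).toReal := by simp [hF, sweep_zero]
  have hmono : ∀ x y : ℝ, x ≤ y → F x ≤ F y := by
    intro x y hxy
    exact ENNReal.toReal_mono (hfin y) (measure_mono (sweep_mono K v hxy))
  have hadd : ∀ x y : ℝ, 0 ≤ x → 0 ≤ y → F (x + y) + F 0 = F x + F y := by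
    intro x y hx hy
    have hmeas : MeasurableSet ((fun z => x • v + z) '' sweep K v y) :=
      ((sweep_compact hK v y).image (by fun_prop)).measurableSet
    have h := measure_union_add_inter (μ := volume) (sweep K v x) hmeas
    rw [← sweep_add K v hx hy, sweep_inter hc v hx hy, volume_translate, volume_translate] at h
    have h' := congrArg ENNReal.toReal h
    rw [ENNReal.toReal_add (hfin _) hK.measure_lt_top.ne,
      ENNReal.toReal_add (hfin _) (hfin _)] at h'
    rw [hF0]
    exact h'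
  have hlin := additive_mono_linear (fun t => F t - F 0)
    (by intro x y hx hy; have := hadd x y hx hy; linarith)
    (by intro x y _ hxy; have := hmono x y hxy; linarith)
  refine ⟨F 1 - F 0, by have := hmono 0 1 zero_le_one; linarith, ?_⟩
  intro t ht
  have := hlin t ht
  rw [← hF0]
  show F t = _
  linarith

end Vale.Agent.P227
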