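import Vale.Agent.P227.Support
import Vale.Agent.P227.Sweep
import Vale.Agent.P227.Numeric

open MeasureTheory Set
open scoped Pointwise

namespace Vale.Agent.P227

variable {n : ℕ}

theorem segsum_eq (K : Set (E n)) (v : E n) :
    K + segment ℝ (-v) v = (fun x => -v + x) '' sweep K v 2 := by
  ext x
  rw [segment_eq_image']
  simp only [mem_add, mem_image, mem_sweep]
  constructor
  · rintro ⟨k, hk, _, ⟨θ, ⟨h0, h1⟩, rfl⟩, rfl⟩
    refine ⟨(2 * θ) • v + k, ⟨2 * θ, by linarith, by linarith, k, hk, rfl⟩, ?_⟩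
    module
  · rintro ⟨_, ⟨r, h0, h1, k, hk, rfl⟩, rfl⟩
    refine ⟨k, hk, _, ⟨r / 2, ⟨by linarith, by linarith⟩, rfl⟩, ?_⟩
    module

theorem IsSymBody.add_segment {K : Set (E n)} (hK : IsSymBody K) (v : E n) :
    IsSymBody (K + segment ℝ (-v) v) where
  isCompact := by
    rw [segsum_eq]
    exact (sweep_compact hK.isCompact v 2).image (by fun_prop)
  convex := hK.convex.add (convex_segment _ _)
  nonempty_interior := by
    refine hK.nonempty_interior.mono (interior_mono ?_)
    intro x hx
    refine ⟨x, hx, 0, ⟨1 / 2, 1 / 2, by norm_num, by norm_num, by norm_num, by simp⟩, by simp⟩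
  neg_mem := by
    rintro _ ⟨k, hk, _, ⟨a, b, ha, hb, hab, rfl⟩, rfl⟩
    refine ⟨-k, hK.neg_mem k hk, _, ⟨b, a, hb, ha, by linarith, rfl⟩, ?_⟩
    module

theorem main_of {K : Set (E n)} (hK : IsSymBody K) (v : E n) (lam : ℝ) (h0 : 0 ≤ lam)
    (h1 : lam ≤ 1) (μ : ℝ) (hμ : 0 ≤ μ)
    (H1 : ∀ u : E n, supp K u + μ * |inner ℝ v u| ≤
        supp K u ^ (1 - lam) * (supp K u + |inner ℝ v u|) ^ lam)
    (H2 : ∀ c : ℝ, 0 ≤ c →
        (∀ t : ℝ, 0 ≤ t → (volume (sweep K v t)).toReal = (volume K).toReal + c * t) →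
        (volume K).toReal ^ (1 - lam) * ((volume K).toReal + c * 2) ^ lam ≤
          (volume K).toReal + μ * (c * 2)) :
    (volume K).toReal ^ (1 - lam) * (volume (K + segment ℝ (-v) v)).toReal ^ lam ≤
      (volume (logSum K (K + segment ℝ (-v) v) lam)).toReal := by
  obtain ⟨c, hc, hvol⟩ := volume_sweep hK.isCompact hK.convex v
  have hL : IsSymBody (K + segment ℝ (-v) v) := hK.add_segment v
  have hvL : (volume (K + segment ℝ (-v) v)).toReal = (volume K).toReal + c * 2 := by
    rw [segsum_eq, volume_translate, hvol 2 (by norm_num)]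
  have hsub : (fun x => -(μ • v) + x) '' sweep K v (2 * μ) ⊆
      logSum K (K + segment ℝ (-v) v) lam := by
    rintro _ ⟨_, hy, rfl⟩
    obtain ⟨r, hr0, hr1, k, hk, rfl⟩ := mem_sweep.mp hy
    intro u _
    have hsL : supp K u + |inner ℝ v u| ≤ supp (K + segment ℝ (-v) v) u := by
      have : ∀ x ∈ K, inner ℝ x u ≤ supp (K + segment ℝ (-v) v) u - |inner ℝ v u| := by
        intro x hx
        have hp : x + v ∈ K + segment ℝ (-v) v := add_mem_add hx (right_mem_segment _ _ _)
        have hm : x + -v ∈ K + segment ℝ (-v) v := add_mem_add hx (left_mem_segment _ _ _)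
        have a1 := inner_le_supp hL.isCompact hp u
        have a2 := inner_le_supp hL.isCompact hm u
        rw [inner_add_left] at a1 a2
        rw [inner_neg_left] at a2
        rcases abs_cases (inner ℝ v u) with ⟨h, _⟩ | ⟨h, _⟩ <;> rw [h] <;> linarith
      have := supp_le ⟨0, hK.zero_mem⟩ this
      linarith
    calc inner ℝ (-(μ • v) + (r • v + k)) u = inner ℝ k u + (r - μ) * inner ℝ v u := by
          simp only [inner_add_left, inner_neg_left, real_inner_smul_left]; ring
      _ ≤ supp K u + μ * |inner ℝ v u| := by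
          have a1 := inner_le_supp hK.isCompact hk u
          have a2 : (r - μ) * inner ℝ v u ≤ |r - μ| * |inner ℝ v u| := by
            rw [← abs_mul]; exact le_abs_self _
          have a3 : |r - μ| ≤ μ := by rw [abs_le]; constructor <;> linarith
          have a4 := mul_le_mul_of_nonneg_right a3 (abs_nonneg (inner ℝ v u))
          linarith
      _ ≤ _ := H1 u
      _ ≤ _ := by
          apply mul_le_mul_of_nonneg_left _ (Real.rpow_nonneg (hK.supp_nonneg u) _)
          exact Real.rpow_le_rpow (by have := hK.supp_nonneg u; positivity) hsL h0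
  have hfin : volume (logSum K (K + segment ℝ (-v) v) lam) ≠ ⊤ :=
    (logSum_bounded hK hL lam h0 h1).measure_lt_top.ne
  have := ENNReal.toReal_mono hfin (measure_mono hsub)
  rw [volume_translate, hvol (2 * μ) (by positivity)] at this
  rw [hvL]
  refine (H2 c hc hvol).trans (le_trans (le_of_eq ?_) this)
  ring

/-- The largest multiple of `v` contained in `K`. -/
theorem exists_radial {K : Set (E n)} (hK : IsSymBody K) {v : E n} (hv : v ≠ 0) :
    ∃ σ : ℝ, 0 < σ ∧ σ • v ∈ K ∧ ∀ t : ℝ, t • v ∈ K → t ≤ σ := by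
  have hcont : Continuous (fun t : ℝ => t • v) := by fun_prop
  have hclosed : IsClosed {t : ℝ | t • v ∈ K} := hK.isCompact.isClosed.preimage hcont
  obtain ⟨R, hR⟩ := hK.isCompact.isBounded.subset_closedBall (0 : E n)
  have hnv : 0 < ‖v‖ := norm_pos_iff.mpr hv
  have hbdd : Bornology.IsBounded {t : ℝ | t • v ∈ K} := by
    apply (Metric.isBounded_closedBall (x := (0 : ℝ)) (r := R / ‖v‖)).subset
    intro t ht
    have : ‖t • v‖ ≤ R := by simpa using hR ht
    rw [norm_smul] at this
    rw [mem_closedBall_zero_iff, le_div_iff₀ hnv]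
    exact this
  have hcomp : IsCompact {t : ℝ | t • v ∈ K} := Metric.isCompact_of_isClosed_isBounded hclosed hbdd
  obtain ⟨σ, hσ, hmax⟩ := hcomp.exists_isGreatest ⟨0, by simpa using hK.zero_mem⟩
  refine ⟨σ, ?_, hσ, fun t ht => hmax ht⟩
  have hopen : IsOpen {t : ℝ | t • v ∈ interior K} := isOpen_interior.preimage hcont
  have h0 : (0 : ℝ) ∈ {t : ℝ | t • v ∈ interior K} := by simpa using hK.zero_mem_interior
  obtain ⟨ε, hε, hball⟩ := Metric.isOpen_iff.mp hopen 0 h0
  have : (ε / 2) ∈ {t : ℝ | t • v ∈ interior K} := by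
    apply hball
    rw [mem_ball_zero_iff, Real.norm_eq_abs, abs_of_pos (by positivity)]
    linarith
  have h3 : (ε / 2) • v ∈ K := interior_subset this
  have h2 : ε / 2 ≤ σ := hmax h3
  linarith

theorem volume_le_of_radial {K : Set (E n)} (hK : IsSymBody K) {v : E n} {σ : ℝ} (hσ0 : 0 < σ)
    (hmax : ∀ t : ℝ, t • v ∈ K → t ≤ σ) {c : ℝ} (hc : 0 ≤ c)
    (hvol : ∀ t : ℝ, 0 ≤ t → (volume (sweep K v t)).toReal = (volume K).toReal + c * t) :
    (volume K).toReal ≤ c * (2 * σ) := by
  have key : ∀ s : ℝ, 2 * σ < s → (volume K).toReal ≤ c * s := by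
    intro s hs
    have hs0 : 0 ≤ s := by linarith
    have hdisj : Disjoint K ((fun x => s • v + x) '' K) := by
      rw [Set.disjoint_left]
      rintro x hx ⟨y, hy, rfl⟩
      have hmem := hK.convex hx (hK.neg_mem y hy) (a := 1 / 2) (b := 1 / 2) (by norm_num)
        (by norm_num) (by norm_num)
      have e : (1 / 2 : ℝ) • (s • v + y) + (1 / 2 : ℝ) • (-y) = (s / 2) • v := by module
      rw [e] at hmem
      have := hmax _ hmem
      linarith
    have hmeas : MeasurableSet ((fun x => s • v + x) '' K) :=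
      (hK.isCompact.image (by fun_prop)).measurableSet
    have hsub : K ∪ (fun x => s • v + x) '' K ⊆ sweep K v s := by
      rintro x (hx | ⟨y, hy, rfl⟩)
      · exact mem_sweep.mpr ⟨0, le_rfl, hs0, x, hx, by simp⟩
      · exact mem_sweep.mpr ⟨s, hs0, le_rfl, y, hy, rfl⟩
    have h1 := measure_mono (μ := volume) hsub
    rw [measure_union hdisj hmeas, volume_translate] at h1
    have h2 := ENNReal.toReal_mono (sweep_compact hK.isCompact v s).measure_lt_top.ne h1
    rw [ENNReal.toReal_add hK.isCompact.measure_lt_top.ne hK.isCompact.measure_lt_top.ne,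
      hvol s hs0] at h2
    linarith
  apply le_of_forall_pos_le_add
  intro ε hε
  have hc1 : 0 < c + 1 := by linarith
  have := key (2 * σ + ε / (c + 1)) (by have : 0 < ε / (c + 1) := by positivity
                                        linarith)
  have h3 : c * (ε / (c + 1)) ≤ ε := by
    rw [mul_div_assoc', div_le_iff₀ hc1]
    nlinarith
  linarith

/-- The logarithmic Brunn-Minkowski inequality for the pair `K`, `K + [-v, v]`. -/
theorem logBM_add_segment {K : Set (E n)} (hK : IsSymBody K) (v : E n) (lam : ℝ) (h0 : 0 ≤ lam)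
    (h1 : lam ≤ 1) :
    (volume K).toReal ^ (1 - lam) * (volume (K + segment ℝ (-v) v)).toReal ^ lam ≤
      (volume (logSum K (K + segment ℝ (-v) v) lam)).toReal := by
  rcases eq_or_ne v 0 with rfl | hv
  · apply main_of hK 0 lam h0 h1 0 le_rfl
    · intro u
      have := homog_le lam h0 h1 1 one_pos (supp K u) 0 (hK.supp_nonneg u) le_rfl
        (by have := hK.supp_nonneg u; linarith)
      simpa using this
    · intro c _ hvol
      have h := hvol 1 zero_le_one
      have e : sweep K (0 : E n) 1 = K := by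
        ext x
        rw [mem_sweep]
        constructor
        · rintro ⟨r, _, _, k, hk, rfl⟩
          simpa using hk
        · intro hx
          exact ⟨0, le_rfl, zero_le_one, x, hx, by simp⟩
      rw [e] at h
      have hc0 : c = 0 := by linarith
      subst hc0
      rw [homog_eq lam _ _ hK.volume_pos (by norm_num)]
      simp
  · obtain ⟨σ, hσ0, hσ, hmax⟩ := exists_radial hK hv
    have hτ : 0 < 1 / σ := by positivity
    have hμ : 0 ≤ ((1 + 1 / σ) ^ lam - 1) / (1 / σ) := by
      apply div_nonneg _ hτ.le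
      have := Real.one_le_rpow (x := 1 + 1 / σ) (by linarith) h0
      linarith
    apply main_of hK v lam h0 h1 (((1 + 1 / σ) ^ lam - 1) / (1 / σ)) hμ
    · intro u
      apply homog_le lam h0 h1 (1 / σ) hτ _ _ (hK.supp_nonneg u) (abs_nonneg _)
      have a1 := inner_le_supp hK.isCompact hσ u
      have a2 := inner_le_supp hK.isCompact (hK.neg_mem _ hσ) u
      rw [inner_neg_left] at a2
      rw [real_inner_smul_left] at a1 a2
      have : σ * |inner ℝ v u| ≤ supp K u := by
        rcases abs_cases (inner ℝ v u) with ⟨h, _⟩ | ⟨h, _⟩ <;> rw [h] <;> linarith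
      rw [one_div, inv_mul_eq_div, le_div_iff₀ hσ0]
      linarith
    · intro c hc hvol
      apply homog_ge lam h0 h1 (1 / σ) hτ _ _ hK.volume_pos
      have := volume_le_of_radial hK hσ0 hmax hc hvol
      rw [one_div, inv_mul_eq_div, div_le_iff₀ hσ0]
      linarith

end Vale.Agent.P227
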