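import Vale.Agent.P227.Defs

open MeasureTheory Set
open scoped Pointwise

namespace Vale.Agent.P227

variable {n : ℕ}

theorem inner_le_supp {K : Set (E n)} (hK : IsCompact K) {x : E n} (hx : x ∈ K) (u : E n) :
    inner ℝ x u ≤ supp K u :=
  le_csSup (hK.bddAbove_image (by fun_prop)) (mem_image_of_mem _ hx)

theorem supp_le {K : Set (E n)} (hne : K.Nonempty) {u : E n} {c : ℝ}
    (h : ∀ x ∈ K, inner ℝ x u ≤ c) : supp K u ≤ c :=
  csSup_le (hne.image _) (by rintro _ ⟨x, hx, rfl⟩; exact h x hx)

theorem IsSymBody.zero_mem_interior {K : Set (E n)} (hK : IsSymBody K) : (0 : E n) ∈ interior K := by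
  obtain ⟨x, hx⟩ := hK.nonempty_interior
  have hneg : -K = K := by
    ext y
    constructor
    · intro hy
      have := hK.neg_mem _ hy
      simpa using this
    · intro hy
      exact hK.neg_mem _ hy
  have hx' : -x ∈ interior K := by
    have h1 := (Homeomorph.neg (E n)).image_interior K
    have h2 : (Homeomorph.neg (E n)) '' K = K := by
      ext y
      constructor
      · rintro ⟨z, hz, rfl⟩
        exact hK.neg_mem z hz
      · intro hy
        exact ⟨-y, hK.neg_mem y hy, by simp⟩
    rw [h2] at h1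
    rw [← h1]
    exact ⟨x, hx, rfl⟩
  have := hK.convex.interior hx hx' (a := 1 / 2) (b := 1 / 2) (by norm_num) (by norm_num)
    (by norm_num)
  simpa using this

theorem IsSymBody.zero_mem {K : Set (E n)} (hK : IsSymBody K) : (0 : E n) ∈ K :=
  interior_subset hK.zero_mem_interior

theorem IsSymBody.supp_nonneg {K : Set (E n)} (hK : IsSymBody K) (u : E n) : 0 ≤ supp K u := by
  have := inner_le_supp hK.isCompact hK.zero_mem u
  simpa using this

theorem IsSymBody.volume_pos {K : Set (E n)} (hK : IsSymBody K) : 0 < (volume K).toReal := by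
  apply ENNReal.toReal_pos
  · exact (lt_of_lt_of_le (isOpen_interior.measure_pos volume hK.nonempty_interior)
      (measure_mono interior_subset)).ne'
  · exact hK.isCompact.measure_lt_top.ne

theorem logSum_bounded {K L : Set (E n)} (hK : IsSymBody K) (hL : IsSymBody L) (lam : ℝ)
    (h0 : 0 ≤ lam) (h1 : lam ≤ 1) : Bornology.IsBounded (logSum K L lam) := by
  obtain ⟨R1, hR1⟩ := hK.isCompact.isBounded.subset_closedBall (0 : E n)
  obtain ⟨R2, hR2⟩ := hL.isCompact.isBounded.subset_closedBall (0 : E n)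
  have hs : ∀ (M : Set (E n)) (R : ℝ), M.Nonempty → M ⊆ Metric.closedBall 0 R →
      ∀ u : E n, ‖u‖ = 1 → supp M u ≤ R := by
    intro M R hne hM u hu
    apply supp_le hne
    intro x hx
    have h1 : ‖x‖ ≤ R := by simpa using hM hx
    calc inner ℝ x u ≤ ‖x‖ * ‖u‖ := real_inner_le_norm x u
      _ = ‖x‖ := by rw [hu, mul_one]
      _ ≤ R := h1
  apply (Metric.isBounded_closedBall (x := (0 : E n)) (r := R1 ^ (1 - lam) * R2 ^ lam)).subset
  intro x hx
  rw [mem_closedBall_zero_iff]
  have hR1' : 0 ≤ R1 := by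
    have := hR1 hK.zero_mem
    simpa using this
  have hR2' : 0 ≤ R2 := by
    have := hR2 hL.zero_mem
    simpa using this
  rcases eq_or_ne x 0 with rfl | hx0
  · simp only [norm_zero]; positivity
  · have hnx : 0 < ‖x‖ := norm_pos_iff.mpr hx0
    have hu : ‖(‖x‖⁻¹ • x)‖ = 1 := by
      rw [norm_smul, norm_inv, norm_norm, inv_mul_cancel₀ hnx.ne']
    have := hx _ hu
    simp only at this
    have e : inner ℝ x (‖x‖⁻¹ • x) = ‖x‖ := by
      rw [inner_smul_right, real_inner_self_eq_norm_sq]
      field_simp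
    rw [e] at this
    refine this.trans ?_
    apply mul_le_mul
    · exact Real.rpow_le_rpow (hK.supp_nonneg _) (hs K R1 ⟨0, hK.zero_mem⟩ hR1 _ hu) (by linarith)
    · exact Real.rpow_le_rpow (hL.supp_nonneg _) (hs L R2 ⟨0, hL.zero_mem⟩ hR2 _ hu) h0
    · exact Real.rpow_nonneg (hL.supp_nonneg _) _
    · exact Real.rpow_nonneg hR1' _

end Vale.Agent.P227
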